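import Vale.Agent.P328.Chain

/-!
# P328: reduction of the sampling problem for contingency tables to a lemma on three-row tables

If `Pi_0 + Pi_1 + Pi_2 <= 2` on mean zero functions on every set of `3 x n` tables (`Pi_k` = conditional
expectation given row `k`, uniform measure), then for ALL `m, n >= 2` and ALL margins the lazy 2 x 2
heat-bath chain has Poincare constant at least `2 / (m (m-1) n (n-1))` and is within total variation
distance `eps` of the uniform law after `m (m-1) n (n-1) / 2 * (m n log (N+1) + 2 log (1 / (2 eps)))` steps.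
-/

namespace Vale.Agent.Results.P328.A0_ReductionToThreeRows

open Vale.Agent.P328

open scoped Classical in
theorem result (H : ThreeRowLemma) (m n : ℕ) (hm : 2 ≤ m) (hn : 2 ≤ n) (r : Fin m → ℕ)
    (c : Fin n → ℕ) (hne : Nonempty (Omega r c)) :
    ((∀ X Y, heatBath r c X Y = heatBath r c Y X) ∧ (∀ X Y, 0 ≤ heatBath r c X Y) ∧
      (∀ X, ∑ Y, heatBath r c X Y = 1)) ∧
    (∀ f : Omega r c → ℝ,
      2 / ((m : ℝ) * ((m : ℝ) - 1) * (n : ℝ) * ((n : ℝ) - 1)) *
          ∑ X, (f X - (∑ Z, f Z) / (Fintype.card (Omega r c) : ℝ)) ^ 2 ≤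
        1 / 2 * ∑ X, ∑ Y, heatBath r c X Y * (f X - f Y) ^ 2) ∧
    (∀ (ε : ℝ), 0 < ε → ∀ t : ℕ,
      (m : ℝ) * ((m : ℝ) - 1) * (n : ℝ) * ((n : ℝ) - 1) / 2 *
          ((m : ℝ) * n * Real.log ((∑ i, r i : ℕ) + 1) + 2 * Real.log (1 / (2 * ε))) ≤ t →
        ∀ X, 1 / 2 * ∑ Y, |(heatBath r c ^ t) X Y - 1 / (Fintype.card (Omega r c) : ℝ)| ≤ ε) :=
  ⟨⟨heatBath_symm r c, heatBath_nonneg r c hm hn, heatBath_row_sum r c hm hn⟩,
    fun f => heatBath_poincare r c H hm hn f,
    fun ε hε t ht X => heatBath_mixing r c H hm hn ε hε t ht X⟩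

end Vale.Agent.Results.P328.A0_ReductionToThreeRows
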