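import Mathlib

namespace Vale.Agent.Results.P328.CountingChain

open Finset

/-- The set of contingency tables with row sums `r` and column sums `c`. -/
def Tables {m n : ℕ} (r : Fin m → ℕ) (c : Fin n → ℕ) : Set (Fin m → Fin n → ℕ) :=
  {X | (∀ i, ∑ j, X i j = r i) ∧ (∀ j, ∑ i, X i j = c j)}

/-- The number of contingency tables. -/
noncomputable def numTables {m n : ℕ} (r : Fin m → ℕ) (c : Fin n → ℕ) : ℕ :=
  (Tables r c).ncard

theorem tables_finite {m n : ℕ} (r : Fin m → ℕ) (c : Fin n → ℕ) : (Tables r c).Finite := by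
  apply Set.Finite.subset (Set.finite_Icc (0 : Fin m → Fin n → ℕ) (fun i _ => r i))
  intro X hX
  refine ⟨fun i j => Nat.zero_le _, fun i j => ?_⟩
  have := hX.1 i
  calc X i j ≤ ∑ j, X i j := Finset.single_le_sum (f := fun j => X i j) (fun _ _ => Nat.zero_le _) (Finset.mem_univ j)
    _ = r i := this

/-- the elementary table -/
def unitTable {m n : ℕ} (i : Fin m) (j : Fin n) (k : ℕ) : Fin m → Fin n → ℕ :=
  Pi.single i (Pi.single j k)

theorem unitTable_row {m n : ℕ} (i : Fin m) (j : Fin n) (k : ℕ) (i' : Fin m) :
    ∑ j', unitTable i j k i' j' = (Pi.single i k : Fin m → ℕ) i' := by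
  unfold unitTable
  by_cases h : i' = i
  · subst h
    simp
  · simp [Pi.single_eq_of_ne h]

theorem unitTable_col {m n : ℕ} (i : Fin m) (j : Fin n) (k : ℕ) (j' : Fin n) :
    ∑ i', unitTable i j k i' j' = (Pi.single j k : Fin n → ℕ) j' := by
  unfold unitTable
  rw [Finset.sum_eq_single i]
  · simp
  · intro b _ hb
    simp [Pi.single_eq_of_ne hb]
  · simp

theorem shift_image {m n : ℕ} (r : Fin m → ℕ) (c : Fin n → ℕ) (i : Fin m) (j : Fin n) (k : ℕ) :
    (fun X => X + unitTable i j k) '' Tables r c =
      {X ∈ Tables (r + Pi.single i k) (c + Pi.single j k) | k ≤ X i j} := by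
  ext Y
  constructor
  · rintro ⟨X, hX, rfl⟩
    refine ⟨⟨fun i' => ?_, fun j' => ?_⟩, ?_⟩
    · simp only [Pi.add_apply, Finset.sum_add_distrib, hX.1 i', unitTable_row]
    · simp only [Pi.add_apply, Finset.sum_add_distrib, hX.2 j', unitTable_col]
    · simp [unitTable]
  · rintro ⟨⟨h1, h2⟩, h3⟩
    refine ⟨Y - unitTable i j k, ⟨fun i' => ?_, fun j' => ?_⟩, ?_⟩
    · have hle : ∀ j', unitTable i j k i' j' ≤ Y i' j' := by
        intro j'
        unfold unitTable
        by_cases h : i' = i
        · subst h
          by_cases h' : j' = j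
          · subst h'; simpa using h3
          · simp [Pi.single_eq_of_ne h']
        · simp [Pi.single_eq_of_ne h]
      have := h1 i'
      have e : ∑ j', (Y - unitTable i j k) i' j' + ∑ j', unitTable i j k i' j' = ∑ j', Y i' j' := by
        rw [← Finset.sum_add_distrib]
        apply Finset.sum_congr rfl
        intro j' _
        simp only [Pi.sub_apply]
        exact Nat.sub_add_cancel (hle j')
      rw [unitTable_row, this] at e
      simpa using e
    · have hle : ∀ i', unitTable i j k i' j' ≤ Y i' j' := by
        intro i'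
        unfold unitTable
        by_cases h : i' = i
        · subst h
          by_cases h' : j' = j
          · subst h'; simpa using h3
          · simp [Pi.single_eq_of_ne h']
        · simp [Pi.single_eq_of_ne h]
      have := h2 j'
      have e : ∑ i', (Y - unitTable i j k) i' j' + ∑ i', unitTable i j k i' j' = ∑ i', Y i' j' := by
        rw [← Finset.sum_add_distrib]
        apply Finset.sum_congr rfl
        intro i' _
        simp only [Pi.sub_apply]
        exact Nat.sub_add_cancel (hle i')
      rw [unitTable_col, this] at e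
      simpa using e
    · funext i' j'
      simp only [Pi.add_apply, Pi.sub_apply]
      apply Nat.sub_add_cancel
      unfold unitTable
      by_cases h : i' = i
      · subst h
        by_cases h' : j' = j
        · subst h'; simpa using h3
        · simp [Pi.single_eq_of_ne h']
      · simp [Pi.single_eq_of_ne h]

theorem shift_count {m n : ℕ} (r : Fin m → ℕ) (c : Fin n → ℕ) (i : Fin m) (j : Fin n) (k : ℕ) :
    numTables r c =
      {X ∈ Tables (r + Pi.single i k) (c + Pi.single j k) | k ≤ X i j}.ncard := by
  rw [← shift_image, Set.ncard_image_of_injective]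
  · rfl
  · intro X Y h
    exact add_right_cancel h

theorem exists_large_entry {m n : ℕ} (r : Fin m → ℕ) (c : Fin n → ℕ) (i : Fin m) (k : ℕ)
    (hk : n * k < r i + n) (X : Fin m → Fin n → ℕ) (hX : X ∈ Tables r c) : ∃ j, k ≤ X i j := by
  by_contra hcon
  push Not at hcon
  have h1 := hX.1 i
  have h2 : ∑ j, (X i j + 1) ≤ ∑ _j : Fin n, k := Finset.sum_le_sum (fun j _ => hcon j)
  rw [Finset.sum_add_distrib, h1] at h2
  simp at h2
  omega

theorem pigeonhole {m n : ℕ} (r : Fin m → ℕ) (c : Fin n → ℕ) (i : Fin m) (k : ℕ)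
    (hk : n * k < r i + n) (hne : (Tables r c).Nonempty) :
    ∃ j, numTables r c ≤ n * {X ∈ Tables r c | k ≤ X i j}.ncard := by
  by_contra hcon
  push Not at hcon
  have hsub : Tables r c ⊆ ⋃ j, {X ∈ Tables r c | k ≤ X i j} := by
    intro X hX
    obtain ⟨j, hj⟩ := exists_large_entry r c i k hk X hX
    exact Set.mem_iUnion.2 ⟨j, hX, hj⟩
  have hfin : (⋃ j, {X ∈ Tables r c | k ≤ X i j}).Finite :=
    Set.finite_iUnion (fun j => (tables_finite r c).subset (fun X hX => hX.1))
  have h1 : numTables r c ≤ ∑ j, {X ∈ Tables r c | k ≤ X i j}.ncard :=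
    (Set.ncard_le_ncard hsub hfin).trans (Set.ncard_iUnion_le_of_fintype _)
  have hpos : 0 < numTables r c := (Set.ncard_pos (tables_finite r c)).2 hne
  have hn : 0 < n := by
    rcases Nat.eq_zero_or_pos n with h | h
    · subst h
      simp at h1
      omega
    · exact h
  have h2 : ∑ j : Fin n, n * {X ∈ Tables r c | k ≤ X i j}.ncard < ∑ _j : Fin n, numTables r c := by
    apply Finset.sum_lt_sum_of_nonempty
    · exact ⟨⟨0, hn⟩, Finset.mem_univ _⟩
    · intro j _
      exact hcon j
  rw [← Finset.mul_sum] at h2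
  simp at h2
  have := Nat.lt_of_mul_lt_mul_left h2
  omega

theorem tables_nonempty {m n : ℕ} : ∀ (N : ℕ) (r : Fin m → ℕ) (c : Fin n → ℕ), ∑ i, r i = N →
    ∑ j, c j = N → (Tables r c).Nonempty := by
  intro N
  induction N with
  | zero =>
    intro r c hr hc
    refine ⟨0, fun i => ?_, fun j => ?_⟩
    · have := (Finset.sum_eq_zero_iff.1 hr) i (Finset.mem_univ i)
      simp [this]
    · have := (Finset.sum_eq_zero_iff.1 hc) j (Finset.mem_univ j)
      simp [this]
  | succ N ih =>
    intro r c hr hc
    have hi : ∃ i, 0 < r i := by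
      by_contra h
      push Not at h
      have : ∑ i, r i = 0 := Finset.sum_eq_zero (fun i _ => Nat.le_zero.1 (h i))
      omega
    have hj : ∃ j, 0 < c j := by
      by_contra h
      push Not at h
      have : ∑ j, c j = 0 := Finset.sum_eq_zero (fun j _ => Nat.le_zero.1 (h j))
      omega
    obtain ⟨i, hi⟩ := hi
    obtain ⟨j, hj⟩ := hj
    have er : r = (r - Pi.single i 1) + Pi.single i 1 := by
      funext i'
      by_cases h : i' = i
      · subst h; simp; omega
      · simp [Pi.single_eq_of_ne h]
    have ec : c = (c - Pi.single j 1) + Pi.single j 1 := by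
      funext j'
      by_cases h : j' = j
      · subst h; simp; omega
      · simp [Pi.single_eq_of_ne h]
    have sr : ∑ i', (r - Pi.single i 1 : Fin m → ℕ) i' = N := by
      have : ∑ i', r i' = ∑ i', (r - Pi.single i 1 : Fin m → ℕ) i' + ∑ i', (Pi.single i 1 : Fin m → ℕ) i' := by
        rw [← Finset.sum_add_distrib]
        conv_lhs => rw [er]
        rfl
      simp at this
      simp
      omega
    have sc : ∑ j', (c - Pi.single j 1 : Fin n → ℕ) j' = N := by
      have : ∑ j', c j' = ∑ j', (c - Pi.single j 1 : Fin n → ℕ) j' + ∑ j', (Pi.single j 1 : Fin n → ℕ) j' := by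
        rw [← Finset.sum_add_distrib]
        conv_lhs => rw [ec]
        rfl
      simp at this
      simp
      omega
    have hne := ih _ _ sr sc
    have hpos : 0 < numTables (r - Pi.single i 1) (c - Pi.single j 1) :=
      (Set.ncard_pos (tables_finite _ _)).2 hne
    rw [shift_count _ _ i j 1, ← er, ← ec] at hpos
    obtain ⟨X, hX⟩ := (Set.ncard_pos ((tables_finite r c).subset (fun X hX => hX.1))).1 hpos
    exact ⟨X, hX.1⟩

theorem log_drop (n s k : ℕ) (hn : 0 < n) (hs : 1 ≤ s) (hk : s ≤ n * k) (hks : k ≤ s) :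
    2 * (n : ℝ) * Real.log ((s - k : ℕ) + 1) + 1 ≤ 2 * (n : ℝ) * Real.log ((s : ℝ) + 1) := by
  have hn' : (0 : ℝ) < n := by exact_mod_cast hn
  have hs' : (1 : ℝ) ≤ s := by exact_mod_cast hs
  have hk' : (s : ℝ) ≤ n * k := by exact_mod_cast hk
  have hcast : ((s - k : ℕ) : ℝ) = (s : ℝ) - k := by
    rw [Nat.cast_sub hks]
  rw [hcast]
  have hks' : (k : ℝ) ≤ s := by exact_mod_cast hks
  have ha : (0 : ℝ) < (s : ℝ) - k + 1 := by linarith
  have hb : (0 : ℝ) < (s : ℝ) + 1 := by linarith
  have h1 : Real.log (((s : ℝ) - k + 1) / ((s : ℝ) + 1)) ≤ ((s : ℝ) - k + 1) / ((s : ℝ) + 1) - 1 :=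
    Real.log_le_sub_one_of_pos (div_pos ha hb)
  rw [Real.log_div ha.ne' hb.ne'] at h1
  have h2 : ((s : ℝ) - k + 1) / ((s : ℝ) + 1) - 1 = - (k / ((s : ℝ) + 1)) := by
    field_simp
    ring
  rw [h2] at h1
  have h3 : 1 ≤ 2 * (n : ℝ) * (k / ((s : ℝ) + 1)) := by
    rw [← mul_div_assoc, le_div_iff₀ hb]
    nlinarith
  nlinarith

theorem add_le_mul_add_one (s n : ℕ) (hs : 1 ≤ s) (hn : 1 ≤ n) : s + n ≤ s * n + 1 := by
  obtain ⟨a, rfl⟩ := Nat.exists_eq_add_of_le hs
  obtain ⟨b, rfl⟩ := Nat.exists_eq_add_of_le hn
  nlinarith [Nat.zero_le (a * b)]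

theorem chain {m n : ℕ} : ∀ (N : ℕ) (r : Fin m → ℕ) (c : Fin n → ℕ), ∑ i, r i = N → ∑ j, c j = N →
    ∃ (T : ℕ) (R : ℕ → Fin m → ℕ) (C : ℕ → Fin n → ℕ),
      (T : ℝ) ≤ 2 * n * ∑ i, Real.log ((r i : ℝ) + 1) ∧ R 0 = r ∧ C 0 = c ∧ R T = 0 ∧ C T = 0 ∧
      ∀ t < T, ∃ i j k, R t = R (t + 1) + Pi.single i k ∧ C t = C (t + 1) + Pi.single j k ∧
        numTables (R (t + 1)) (C (t + 1)) = {X ∈ Tables (R t) (C t) | k ≤ X i j}.ncard ∧
        numTables (R (t + 1)) (C (t + 1)) ≤ numTables (R t) (C t) ∧
        numTables (R t) (C t) ≤ n * numTables (R (t + 1)) (C (t + 1)) := by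
  intro N
  induction N using Nat.strong_induction_on with
  | _ N ih =>
    intro r c hr hc
    rcases Nat.eq_zero_or_pos N with hN | hN
    · subst hN
      have r0 : r = 0 := by
        funext i
        exact (Finset.sum_eq_zero_iff.1 hr) i (Finset.mem_univ i)
      have c0 : c = 0 := by
        funext j
        exact (Finset.sum_eq_zero_iff.1 hc) j (Finset.mem_univ j)
      refine ⟨0, fun _ => r, fun _ => c, ?_, rfl, rfl, r0, c0, ?_⟩
      · simp [r0]
      · intro t ht
        omega
    · have hi : ∃ i, 0 < r i := by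
        by_contra h
        push Not at h
        have : ∑ i, r i = 0 := Finset.sum_eq_zero (fun i _ => Nat.le_zero.1 (h i))
        omega
      obtain ⟨i, hi⟩ := hi
      have hn : 0 < n := by
        rcases Nat.eq_zero_or_pos n with h | h
        · subst h
          simp at hc
          omega
        · exact h
      set k := (r i + n - 1) / n with hkdef
      have hk1 : n * k ≤ r i + n - 1 := Nat.mul_div_le _ _
      have hk2 : r i ≤ n * k := by
        have := Nat.lt_mul_div_succ (r i + n - 1) hn
        rw [← hkdef] at this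
        have e : n * (k + 1) = n * k + n := by ring
        omega
      have hk3 : k ≤ r i := by
        have : k ≤ (r i * n) / n := by
          apply Nat.div_le_div_right
          have := add_le_mul_add_one (r i) n hi hn
          omega
        rwa [Nat.mul_div_cancel _ hn] at this
      have hk4 : 1 ≤ k := by
        rcases Nat.eq_zero_or_pos k with h | h
        · rw [h] at hk2
          omega
        · exact h
      have hne := tables_nonempty N r c hr hc
      obtain ⟨j, hj⟩ := pigeonhole r c i k (by omega) hne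
      have hpos : 0 < numTables r c := (Set.ncard_pos (tables_finite r c)).2 hne
      have hSfin : {X ∈ Tables r c | k ≤ X i j}.Finite :=
        (tables_finite r c).subset (fun X hX => hX.1)
      have hSpos : 0 < {X ∈ Tables r c | k ≤ X i j}.ncard := by
        rcases Nat.eq_zero_or_pos ({X ∈ Tables r c | k ≤ X i j}.ncard) with h | h
        · rw [h] at hj
          omega
        · exact h
      obtain ⟨X, hX, hXk⟩ := (Set.ncard_pos hSfin).1 hSpos
      have hcj : k ≤ c j := by
        calc k ≤ X i j := hXk
          _ ≤ ∑ i', X i' j := Finset.single_le_sum (f := fun i' => X i' j)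
              (fun _ _ => Nat.zero_le _) (Finset.mem_univ i)
          _ = c j := hX.2 j
      have er : r = (r - Pi.single i k) + Pi.single i k := by
        funext i'
        by_cases h : i' = i
        · subst h; simp; omega
        · simp [Pi.single_eq_of_ne h]
      have ec : c = (c - Pi.single j k) + Pi.single j k := by
        funext j'
        by_cases h : j' = j
        · subst h; simp; omega
        · simp [Pi.single_eq_of_ne h]
      have sr : ∑ i', (r - Pi.single i k : Fin m → ℕ) i' = N - k := by
        have : ∑ i', r i' = ∑ i', (r - Pi.single i k : Fin m → ℕ) i'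
            + ∑ i', (Pi.single i k : Fin m → ℕ) i' := by
          rw [← Finset.sum_add_distrib]
          conv_lhs => rw [er]
          rfl
        simp at this
        simp
        omega
      have sc : ∑ j', (c - Pi.single j k : Fin n → ℕ) j' = N - k := by
        have : ∑ j', c j' = ∑ j', (c - Pi.single j k : Fin n → ℕ) j'
            + ∑ j', (Pi.single j k : Fin n → ℕ) j' := by
          rw [← Finset.sum_add_distrib]
          conv_lhs => rw [ec]
          rfl
        simp at this
        simp
        omega
      have key : numTables (r - Pi.single i k : Fin m → ℕ) (c - Pi.single j k : Fin n → ℕ)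
          = {X ∈ Tables r c | k ≤ X i j}.ncard := by
        have := shift_count (r - Pi.single i k : Fin m → ℕ) (c - Pi.single j k : Fin n → ℕ) i j k
        rwa [← er, ← ec] at this
      obtain ⟨T, R, C, hT, hR0, hC0, hRT, hCT, hstep⟩ := ih (N - k) (by omega) _ _ sr sc
      refine ⟨T + 1, fun t => Nat.casesOn t r R, fun t => Nat.casesOn t c C, ?_, rfl, rfl, hRT, hCT, ?_⟩
      · have hsum : 2 * (n : ℝ) * ∑ i', Real.log (((r - Pi.single i k : Fin m → ℕ) i' : ℝ) + 1) + 1
            ≤ 2 * (n : ℝ) * ∑ i', Real.log ((r i' : ℝ) + 1) := by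
          rw [← Finset.add_sum_erase _ _ (Finset.mem_univ i),
            ← Finset.add_sum_erase (a := i) _ (fun i' => Real.log ((r i' : ℝ) + 1)) (Finset.mem_univ i)]
          have h1 : ∑ x ∈ Finset.univ.erase i, Real.log (((r - Pi.single i k : Fin m → ℕ) x : ℝ) + 1)
              = ∑ x ∈ Finset.univ.erase i, Real.log ((r x : ℝ) + 1) := by
            apply Finset.sum_congr rfl
            intro x hx
            have : x ≠ i := Finset.ne_of_mem_erase hx
            simp [Pi.single_eq_of_ne this]
          rw [h1]
          have h2 := log_drop n (r i) k hn hi hk2 hk3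
          have h3 : ((r - Pi.single i k : Fin m → ℕ) i) = r i - k := by simp
          rw [h3]
          nlinarith
        push_cast
        linarith
      · intro t ht
        cases t with
        | zero =>
          refine ⟨i, j, k, ?_, ?_, ?_, ?_, ?_⟩
          · show r = R 0 + Pi.single i k
            rw [hR0]; exact er
          · show c = C 0 + Pi.single j k
            rw [hC0]; exact ec
          · show numTables (R 0) (C 0) = {X ∈ Tables r c | k ≤ X i j}.ncard
            rw [hR0, hC0, key]
          · show numTables (R 0) (C 0) ≤ numTables r c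
            rw [hR0, hC0, key]
            exact Set.ncard_le_ncard (fun X hX => hX.1) (tables_finite r c)
          · show numTables r c ≤ n * numTables (R 0) (C 0)
            rw [hR0, hC0, key]
            exact hj
        | succ t =>
          exact hstep t (by omega)


theorem numTables_zero {m n : ℕ} : numTables (0 : Fin m → ℕ) (0 : Fin n → ℕ) = 1 := by
  have : Tables (0 : Fin m → ℕ) (0 : Fin n → ℕ) = {0} := by
    ext X
    constructor
    · intro hX
      rw [Set.mem_singleton_iff]
      funext i j
      have := hX.1 i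
      simp only [Pi.zero_apply] at this
      exact (Finset.sum_eq_zero_iff.1 this) j (Finset.mem_univ j)
    · intro hX
      rw [Set.mem_singleton_iff] at hX
      subst hX
      exact ⟨fun i => by simp, fun j => by simp⟩
  unfold numTables
  rw [this, Set.ncard_singleton]

theorem result {m n : ℕ} (r : Fin m → ℕ) (c : Fin n → ℕ) (hrc : ∑ i, r i = ∑ j, c j) :
    ∃ (T : ℕ) (R : ℕ → Fin m → ℕ) (C : ℕ → Fin n → ℕ),
      (T : ℝ) ≤ 2 * n * ∑ i, Real.log ((r i : ℝ) + 1) ∧
      R 0 = r ∧ C 0 = c ∧ R T = 0 ∧ C T = 0 ∧
      (∀ t < T, ∃ i j k, R t = R (t + 1) + Pi.single i k ∧ C t = C (t + 1) + Pi.single j k ∧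
        numTables (R (t + 1)) (C (t + 1)) = {X ∈ Tables (R t) (C t) | k ≤ X i j}.ncard ∧
        numTables (R (t + 1)) (C (t + 1)) ≤ numTables (R t) (C t) ∧
        numTables (R t) (C t) ≤ n * numTables (R (t + 1)) (C (t + 1))) ∧
      (numTables r c : ℝ) =
        ∏ t ∈ Finset.range T, ((numTables (R t) (C t) : ℝ) / numTables (R (t + 1)) (C (t + 1))) := by
  obtain ⟨T, R, C, hT, hR0, hC0, hRT, hCT, hstep⟩ := chain _ r c hrc rfl
  refine ⟨T, R, C, hT, hR0, hC0, hRT, hCT, hstep, ?_⟩
  have hposT : 0 < numTables (R T) (C T) := by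
    rw [hRT, hCT, numTables_zero]
    exact Nat.one_pos
  have hpos : ∀ s, s ≤ T → 0 < numTables (R (T - s)) (C (T - s)) := by
    intro s
    induction s with
    | zero => intro _; simpa using hposT
    | succ s ih =>
      intro hs
      have h1 := ih (by omega)
      obtain ⟨i, j, k, -, -, -, h2, -⟩ := hstep (T - (s + 1)) (by omega)
      have e : T - (s + 1) + 1 = T - s := by omega
      rw [e] at h2
      omega
  have hpos' : ∀ t, t ≤ T → (numTables (R t) (C t) : ℝ) ≠ 0 := by
    intro t ht
    have := hpos (T - t) (by omega)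
    have e : T - (T - t) = t := by omega
    rw [e] at this
    exact_mod_cast this.ne'
  have htel : ∀ s, s ≤ T → (numTables (R 0) (C 0) : ℝ) =
      (∏ t ∈ Finset.range s, ((numTables (R t) (C t) : ℝ) / numTables (R (t + 1)) (C (t + 1))))
        * numTables (R s) (C s) := by
    intro s
    induction s with
    | zero => intro _; simp
    | succ s ih =>
      intro hs
      rw [Finset.prod_range_succ, ih (by omega)]
      have := hpos' (s + 1) hs
      field_simp
  have := htel T le_rfl
  rw [hR0, hC0, hRT, hCT, numTables_zero] at this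
  simpa using this

end Vale.Agent.Results.P328.CountingChain
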